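import Vale.Agent.Lib.P154.PChain.Tail
import Vale.Agent.Lib.P154.PChain.BA.H

set_option linter.all false

namespace Vale.Agent.Lib.P154.PChain.BA

open Vale.Agent.Lib.P154 Vale.Agent.Lib.P154.Neg Vale.Agent.Lib.P154.Chain

/-- the mean of the offspring -/
noncomputable def ds : ℝ := 40121 / 10000

/-- the size of the eigenvalue -/
noncomputable def ts : ℝ := 1 / 2

theorem law_ok : LawOK (poissonLaw ds) g wp := by
  have h := lawOK_poisson (g := g) (wp := wp) (a := 40121) (b := 10000) (Un := 55262800687164) (Ud := 1000000000000) (by decide +kernel) (by decide +kernel) (by decide +kernel)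
    (by decide +kernel) (by decide +kernel) (by decide +kernel) (by decide +kernel) (by decide +kernel) (by decide +kernel)
  have e : (((40121 : ℕ) : ℝ) / ((10000 : ℕ) : ℝ)) = ds := by
    unfold ds
    norm_num
  rw [e] at h
  exact h

theorem inv_0 : PInv (poissonLaw ds) g l0 0 S0.cp0 := by
  rw [S0.start_ok]
  exact pinv_start S0.check_ok

theorem inv_r0_0 : PInv (poissonLaw ds) g l0 3 S0.rc0 := by
  have h := inv_runP (n := 0) (k := 3) S0.check_ok law_ok inv_0
  rw [S0.run_ok0] at h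
  exact h

theorem inv_r0_1 : PInv (poissonLaw ds) g l0 5 S0.rc1 := by
  have h := inv_runP (n := 3) (k := 2) S0.check_ok law_ok inv_r0_0
  rw [S0.run_ok1] at h
  exact h

theorem inv_r0_2 : PInv (poissonLaw ds) g l0 7 S0.rc2 := by
  have h := inv_runP (n := 5) (k := 2) S0.check_ok law_ok inv_r0_1
  rw [S0.run_ok2] at h
  exact h

theorem inv_r0_3 : PInv (poissonLaw ds) g l0 9 S0.rc3 := by
  have h := inv_runP (n := 7) (k := 2) S0.check_ok law_ok inv_r0_2
  rw [S0.run_ok3] at h
  exact h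

theorem inv_s1 : PInv (poissonLaw ds) g l0 9 S1.cp0 := by
  have h : S1.cp0 = S0.rc3 := by
    decide +kernel
  rw [h]
  exact inv_r0_3

theorem inv_r1_0 : PInv (poissonLaw ds) g l1 10 S1.rc0 := by
  have h := inv_run1P (n := 9) S1.check_ok law_ok inv_s1
  rw [S1.run_ok0] at h
  exact h

theorem inv_s2 : PInv (poissonLaw ds) g l1 10 S2.cp0 := by
  have h : S2.cp0 = S1.rc0 := by
    decide +kernel
  rw [h]
  exact inv_r1_0

theorem inv_r2_0 : PInv (poissonLaw ds) g l1 12 S2.rc0 := by
  have h := inv_runP (n := 10) (k := 2) S2.check_ok law_ok inv_s2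
  rw [S2.run_ok0] at h
  exact h

theorem inv_r2_1 : PInv (poissonLaw ds) g l1 14 S2.rc1 := by
  have h := inv_runP (n := 12) (k := 2) S2.check_ok law_ok inv_r2_0
  rw [S2.run_ok1] at h
  exact h

theorem inv_r2_2 : PInv (poissonLaw ds) g l1 16 S2.rc2 := by
  have h := inv_runP (n := 14) (k := 2) S2.check_ok law_ok inv_r2_1
  rw [S2.run_ok2] at h
  exact h

theorem inv_s3 : PInv (poissonLaw ds) g l1 16 S3.cp0 := by
  have h : S3.cp0 = S2.rc2 := by
    decide +kernel
  rw [h]
  exact inv_r2_2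

theorem inv_r3_0 : PInv (poissonLaw ds) g l2 17 S3.rc0 := by
  have h := inv_run1P (n := 16) S3.check_ok law_ok inv_s3
  rw [S3.run_ok0] at h
  exact h

theorem inv_s4 : PInv (poissonLaw ds) g l2 17 S4.cp0 := by
  have h : S4.cp0 = S3.rc0 := by
    decide +kernel
  rw [h]
  exact inv_r3_0

theorem inv_r4_0 : PInv (poissonLaw ds) g l2 18 S4.rc0 := by
  have h := inv_runP (n := 17) (k := 1) S4.check_ok law_ok inv_s4
  rw [S4.run_ok0] at h
  exact h

theorem inv_r4_1 : PInv (poissonLaw ds) g l2 19 S4.rc1 := by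
  have h := inv_runP (n := 18) (k := 1) S4.check_ok law_ok inv_r4_0
  rw [S4.run_ok1] at h
  exact h

theorem inv_r4_2 : PInv (poissonLaw ds) g l2 20 S4.rc2 := by
  have h := inv_runP (n := 19) (k := 1) S4.check_ok law_ok inv_r4_1
  rw [S4.run_ok2] at h
  exact h

theorem inv_r4_3 : PInv (poissonLaw ds) g l2 21 S4.rc3 := by
  have h := inv_runP (n := 20) (k := 1) S4.check_ok law_ok inv_r4_2
  rw [S4.run_ok3] at h
  exact h

theorem inv_r4_4 : PInv (poissonLaw ds) g l2 22 S4.rc4 := by
  have h := inv_runP (n := 21) (k := 1) S4.check_ok law_ok inv_r4_3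
  rw [S4.run_ok4] at h
  exact h

theorem inv_r4_5 : PInv (poissonLaw ds) g l2 23 S4.rc5 := by
  have h := inv_runP (n := 22) (k := 1) S4.check_ok law_ok inv_r4_4
  rw [S4.run_ok5] at h
  exact h

theorem inv_r4_6 : PInv (poissonLaw ds) g l2 25 S4.rc6 := by
  have h := inv_runP (n := 23) (k := 2) S4.check_ok law_ok inv_r4_5
  rw [S4.run_ok6] at h
  exact h

theorem inv_r4_7 : PInv (poissonLaw ds) g l2 27 S4.rc7 := by
  have h := inv_runP (n := 25) (k := 2) S4.check_ok law_ok inv_r4_6
  rw [S4.run_ok7] at h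
  exact h

theorem inv_r4_8 : PInv (poissonLaw ds) g l2 29 S4.rc8 := by
  have h := inv_runP (n := 27) (k := 2) S4.check_ok law_ok inv_r4_7
  rw [S4.run_ok8] at h
  exact h

theorem inv_r4_9 : PInv (poissonLaw ds) g l2 31 S4.rc9 := by
  have h := inv_runP (n := 29) (k := 2) S4.check_ok law_ok inv_r4_8
  rw [S4.run_ok9] at h
  exact h

theorem inv_r4_10 : PInv (poissonLaw ds) g l2 32 S4.rc10 := by
  have h := inv_runP (n := 31) (k := 1) S4.check_ok law_ok inv_r4_9
  rw [S4.run_ok10] at h
  exact h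

theorem inv_s5 : PInv (poissonLaw ds) g l2 32 S5.cp0 := by
  have h : S5.cp0 = S4.rc10 := by
    decide +kernel
  rw [h]
  exact inv_r4_10

theorem inv_r5_0 : PInv (poissonLaw ds) g l3 33 S5.rc0 := by
  have h := inv_run1P (n := 32) S5.check_ok law_ok inv_s5
  rw [S5.run_ok0] at h
  exact h

theorem inv_s6 : PInv (poissonLaw ds) g l3 33 S6.cp0 := by
  have h : S6.cp0 = S5.rc0 := by
    decide +kernel
  rw [h]
  exact inv_r5_0

theorem inv_r6_0 : PInv (poissonLaw ds) g l3 35 S6.rc0 := by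
  have h := inv_runP (n := 33) (k := 2) S6.check_ok law_ok inv_s6
  rw [S6.run_ok0] at h
  exact h

theorem inv_r6_1 : PInv (poissonLaw ds) g l3 37 S6.rc1 := by
  have h := inv_runP (n := 35) (k := 2) S6.check_ok law_ok inv_r6_0
  rw [S6.run_ok1] at h
  exact h

theorem inv_r6_2 : PInv (poissonLaw ds) g l3 39 S6.rc2 := by
  have h := inv_runP (n := 37) (k := 2) S6.check_ok law_ok inv_r6_1
  rw [S6.run_ok2] at h
  exact h

theorem inv_r6_3 : PInv (poissonLaw ds) g l3 41 S6.rc3 := by
  have h := inv_runP (n := 39) (k := 2) S6.check_ok law_ok inv_r6_2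
  rw [S6.run_ok3] at h
  exact h

theorem inv_r6_4 : PInv (poissonLaw ds) g l3 43 S6.rc4 := by
  have h := inv_runP (n := 41) (k := 2) S6.check_ok law_ok inv_r6_3
  rw [S6.run_ok4] at h
  exact h

theorem inv_r6_5 : PInv (poissonLaw ds) g l3 45 S6.rc5 := by
  have h := inv_runP (n := 43) (k := 2) S6.check_ok law_ok inv_r6_4
  rw [S6.run_ok5] at h
  exact h

theorem inv_r6_6 : PInv (poissonLaw ds) g l3 47 S6.rc6 := by
  have h := inv_runP (n := 45) (k := 2) S6.check_ok law_ok inv_r6_5
  rw [S6.run_ok6] at h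
  exact h

theorem inv_r6_7 : PInv (poissonLaw ds) g l3 49 S6.rc7 := by
  have h := inv_runP (n := 47) (k := 2) S6.check_ok law_ok inv_r6_6
  rw [S6.run_ok7] at h
  exact h

theorem inv_r6_8 : PInv (poissonLaw ds) g l3 51 S6.rc8 := by
  have h := inv_runP (n := 49) (k := 2) S6.check_ok law_ok inv_r6_7
  rw [S6.run_ok8] at h
  exact h

theorem inv_r6_9 : PInv (poissonLaw ds) g l3 53 S6.rc9 := by
  have h := inv_runP (n := 51) (k := 2) S6.check_ok law_ok inv_r6_8
  rw [S6.run_ok9] at h
  exact h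

theorem inv_r6_10 : PInv (poissonLaw ds) g l3 55 S6.rc10 := by
  have h := inv_runP (n := 53) (k := 2) S6.check_ok law_ok inv_r6_9
  rw [S6.run_ok10] at h
  exact h

theorem inv_r6_11 : PInv (poissonLaw ds) g l3 57 S6.rc11 := by
  have h := inv_runP (n := 55) (k := 2) S6.check_ok law_ok inv_r6_10
  rw [S6.run_ok11] at h
  exact h

theorem inv_r6_12 : PInv (poissonLaw ds) g l3 59 S6.rc12 := by
  have h := inv_runP (n := 57) (k := 2) S6.check_ok law_ok inv_r6_11
  rw [S6.run_ok12] at h
  exact h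

theorem inv_r6_13 : PInv (poissonLaw ds) g l3 61 S6.rc13 := by
  have h := inv_runP (n := 59) (k := 2) S6.check_ok law_ok inv_r6_12
  rw [S6.run_ok13] at h
  exact h

theorem inv_r6_14 : PInv (poissonLaw ds) g l3 63 S6.rc14 := by
  have h := inv_runP (n := 61) (k := 2) S6.check_ok law_ok inv_r6_13
  rw [S6.run_ok14] at h
  exact h

theorem inv_r6_15 : PInv (poissonLaw ds) g l3 64 S6.rc15 := by
  have h := inv_runP (n := 63) (k := 1) S6.check_ok law_ok inv_r6_14
  rw [S6.run_ok15] at h
  exact h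

theorem inv_s7 : PInv (poissonLaw ds) g l3 64 S7.cp0 := by
  have h : S7.cp0 = S6.rc15 := by
    decide +kernel
  rw [h]
  exact inv_r6_15

theorem inv_r7_0 : PInv (poissonLaw ds) g l3 66 S7.rc0 := by
  have h := inv_runP (n := 64) (k := 2) S7.check_ok law_ok inv_s7
  rw [S7.run_ok0] at h
  exact h

theorem inv_r7_1 : PInv (poissonLaw ds) g l3 68 S7.rc1 := by
  have h := inv_runP (n := 66) (k := 2) S7.check_ok law_ok inv_r7_0
  rw [S7.run_ok1] at h
  exact h

theorem inv_r7_2 : PInv (poissonLaw ds) g l3 70 S7.rc2 := by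
  have h := inv_runP (n := 68) (k := 2) S7.check_ok law_ok inv_r7_1
  rw [S7.run_ok2] at h
  exact h

theorem inv_r7_3 : PInv (poissonLaw ds) g l3 72 S7.rc3 := by
  have h := inv_runP (n := 70) (k := 2) S7.check_ok law_ok inv_r7_2
  rw [S7.run_ok3] at h
  exact h

theorem inv_r7_4 : PInv (poissonLaw ds) g l3 74 S7.rc4 := by
  have h := inv_runP (n := 72) (k := 2) S7.check_ok law_ok inv_r7_3
  rw [S7.run_ok4] at h
  exact h

theorem inv_s8 : PInv (poissonLaw ds) g l3 74 S8.cp0 := by
  have h : S8.cp0 = S7.rc4 := by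
    decide +kernel
  rw [h]
  exact inv_r7_4

theorem inv_r8_0 : PInv (poissonLaw ds) g l4 75 S8.rc0 := by
  have h := inv_run1P (n := 74) S8.check_ok law_ok inv_s8
  rw [S8.run_ok0] at h
  exact h

theorem inv_s9 : PInv (poissonLaw ds) g l4 75 S9.cp0 := by
  have h : S9.cp0 = S8.rc0 := by
    decide +kernel
  rw [h]
  exact inv_r8_0

theorem inv_r9_0 : PInv (poissonLaw ds) g l4 76 S9.rc0 := by
  have h := inv_runP (n := 75) (k := 1) S9.check_ok law_ok inv_s9
  rw [S9.run_ok0] at h
  exact h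

theorem inv_r9_1 : PInv (poissonLaw ds) g l4 77 S9.rc1 := by
  have h := inv_runP (n := 76) (k := 1) S9.check_ok law_ok inv_r9_0
  rw [S9.run_ok1] at h
  exact h

theorem inv_r9_2 : PInv (poissonLaw ds) g l4 78 S9.rc2 := by
  have h := inv_runP (n := 77) (k := 1) S9.check_ok law_ok inv_r9_1
  rw [S9.run_ok2] at h
  exact h

theorem inv_r9_3 : PInv (poissonLaw ds) g l4 79 S9.rc3 := by
  have h := inv_runP (n := 78) (k := 1) S9.check_ok law_ok inv_r9_2
  rw [S9.run_ok3] at h
  exact h

theorem inv_r9_4 : PInv (poissonLaw ds) g l4 80 S9.rc4 := by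
  have h := inv_runP (n := 79) (k := 1) S9.check_ok law_ok inv_r9_3
  rw [S9.run_ok4] at h
  exact h

theorem inv_r9_5 : PInv (poissonLaw ds) g l4 81 S9.rc5 := by
  have h := inv_runP (n := 80) (k := 1) S9.check_ok law_ok inv_r9_4
  rw [S9.run_ok5] at h
  exact h

theorem inv_r9_6 : PInv (poissonLaw ds) g l4 82 S9.rc6 := by
  have h := inv_runP (n := 81) (k := 1) S9.check_ok law_ok inv_r9_5
  rw [S9.run_ok6] at h
  exact h

theorem inv_r9_7 : PInv (poissonLaw ds) g l4 83 S9.rc7 := by
  have h := inv_runP (n := 82) (k := 1) S9.check_ok law_ok inv_r9_6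
  rw [S9.run_ok7] at h
  exact h

theorem inv_r9_8 : PInv (poissonLaw ds) g l4 84 S9.rc8 := by
  have h := inv_runP (n := 83) (k := 1) S9.check_ok law_ok inv_r9_7
  rw [S9.run_ok8] at h
  exact h

theorem inv_r9_9 : PInv (poissonLaw ds) g l4 85 S9.rc9 := by
  have h := inv_runP (n := 84) (k := 1) S9.check_ok law_ok inv_r9_8
  rw [S9.run_ok9] at h
  exact h

theorem inv_r9_10 : PInv (poissonLaw ds) g l4 86 S9.rc10 := by
  have h := inv_runP (n := 85) (k := 1) S9.check_ok law_ok inv_r9_9
  rw [S9.run_ok10] at h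
  exact h

theorem inv_r9_11 : PInv (poissonLaw ds) g l4 87 S9.rc11 := by
  have h := inv_runP (n := 86) (k := 1) S9.check_ok law_ok inv_r9_10
  rw [S9.run_ok11] at h
  exact h

theorem inv_r9_12 : PInv (poissonLaw ds) g l4 88 S9.rc12 := by
  have h := inv_runP (n := 87) (k := 1) S9.check_ok law_ok inv_r9_11
  rw [S9.run_ok12] at h
  exact h

theorem inv_r9_13 : PInv (poissonLaw ds) g l4 89 S9.rc13 := by
  have h := inv_runP (n := 88) (k := 1) S9.check_ok law_ok inv_r9_12
  rw [S9.run_ok13] at h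
  exact h

theorem inv_r9_14 : PInv (poissonLaw ds) g l4 90 S9.rc14 := by
  have h := inv_runP (n := 89) (k := 1) S9.check_ok law_ok inv_r9_13
  rw [S9.run_ok14] at h
  exact h

theorem inv_r9_15 : PInv (poissonLaw ds) g l4 91 S9.rc15 := by
  have h := inv_runP (n := 90) (k := 1) S9.check_ok law_ok inv_r9_14
  rw [S9.run_ok15] at h
  exact h

theorem inv_r9_16 : PInv (poissonLaw ds) g l4 92 S9.rc16 := by
  have h := inv_runP (n := 91) (k := 1) S9.check_ok law_ok inv_r9_15
  rw [S9.run_ok16] at h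
  exact h

theorem inv_r9_17 : PInv (poissonLaw ds) g l4 93 S9.rc17 := by
  have h := inv_runP (n := 92) (k := 1) S9.check_ok law_ok inv_r9_16
  rw [S9.run_ok17] at h
  exact h

theorem inv_r9_18 : PInv (poissonLaw ds) g l4 94 S9.rc18 := by
  have h := inv_runP (n := 93) (k := 1) S9.check_ok law_ok inv_r9_17
  rw [S9.run_ok18] at h
  exact h

theorem inv_r9_19 : PInv (poissonLaw ds) g l4 95 S9.rc19 := by
  have h := inv_runP (n := 94) (k := 1) S9.check_ok law_ok inv_r9_18
  rw [S9.run_ok19] at h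
  exact h

theorem inv_r9_20 : PInv (poissonLaw ds) g l4 96 S9.rc20 := by
  have h := inv_runP (n := 95) (k := 1) S9.check_ok law_ok inv_r9_19
  rw [S9.run_ok20] at h
  exact h

theorem inv_r9_21 : PInv (poissonLaw ds) g l4 97 S9.rc21 := by
  have h := inv_runP (n := 96) (k := 1) S9.check_ok law_ok inv_r9_20
  rw [S9.run_ok21] at h
  exact h

theorem inv_r9_22 : PInv (poissonLaw ds) g l4 98 S9.rc22 := by
  have h := inv_runP (n := 97) (k := 1) S9.check_ok law_ok inv_r9_21
  rw [S9.run_ok22] at h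
  exact h

theorem inv_r9_23 : PInv (poissonLaw ds) g l4 99 S9.rc23 := by
  have h := inv_runP (n := 98) (k := 1) S9.check_ok law_ok inv_r9_22
  rw [S9.run_ok23] at h
  exact h

theorem inv_r9_24 : PInv (poissonLaw ds) g l4 100 S9.rc24 := by
  have h := inv_runP (n := 99) (k := 1) S9.check_ok law_ok inv_r9_23
  rw [S9.run_ok24] at h
  exact h

theorem inv_r9_25 : PInv (poissonLaw ds) g l4 101 S9.rc25 := by
  have h := inv_runP (n := 100) (k := 1) S9.check_ok law_ok inv_r9_24
  rw [S9.run_ok25] at h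
  exact h

theorem inv_r9_26 : PInv (poissonLaw ds) g l4 102 S9.rc26 := by
  have h := inv_runP (n := 101) (k := 1) S9.check_ok law_ok inv_r9_25
  rw [S9.run_ok26] at h
  exact h

theorem inv_r9_27 : PInv (poissonLaw ds) g l4 103 S9.rc27 := by
  have h := inv_runP (n := 102) (k := 1) S9.check_ok law_ok inv_r9_26
  rw [S9.run_ok27] at h
  exact h

theorem inv_r9_28 : PInv (poissonLaw ds) g l4 104 S9.rc28 := by
  have h := inv_runP (n := 103) (k := 1) S9.check_ok law_ok inv_r9_27
  rw [S9.run_ok28] at h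
  exact h

theorem inv_r9_29 : PInv (poissonLaw ds) g l4 105 S9.rc29 := by
  have h := inv_runP (n := 104) (k := 1) S9.check_ok law_ok inv_r9_28
  rw [S9.run_ok29] at h
  exact h

theorem inv_r9_30 : PInv (poissonLaw ds) g l4 106 S9.rc30 := by
  have h := inv_runP (n := 105) (k := 1) S9.check_ok law_ok inv_r9_29
  rw [S9.run_ok30] at h
  exact h

theorem inv_r9_31 : PInv (poissonLaw ds) g l4 107 S9.rc31 := by
  have h := inv_runP (n := 106) (k := 1) S9.check_ok law_ok inv_r9_30
  rw [S9.run_ok31] at h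
  exact h

theorem inv_r9_32 : PInv (poissonLaw ds) g l4 108 S9.rc32 := by
  have h := inv_runP (n := 107) (k := 1) S9.check_ok law_ok inv_r9_31
  rw [S9.run_ok32] at h
  exact h

theorem inv_r9_33 : PInv (poissonLaw ds) g l4 109 S9.rc33 := by
  have h := inv_runP (n := 108) (k := 1) S9.check_ok law_ok inv_r9_32
  rw [S9.run_ok33] at h
  exact h

theorem inv_s10 : PInv (poissonLaw ds) g l4 109 S10.cp0 := by
  have h : S10.cp0 = S9.rc33 := by
    decide +kernel
  rw [h]
  exact inv_r9_33

theorem inv_r10_0 : PInv (poissonLaw ds) g l4 111 S10.rc0 := by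
  have h := inv_runP (n := 109) (k := 2) S10.check_ok law_ok inv_s10
  rw [S10.run_ok0] at h
  exact h

theorem inv_r10_1 : PInv (poissonLaw ds) g l4 113 S10.rc1 := by
  have h := inv_runP (n := 111) (k := 2) S10.check_ok law_ok inv_r10_0
  rw [S10.run_ok1] at h
  exact h

theorem inv_r10_2 : PInv (poissonLaw ds) g l4 115 S10.rc2 := by
  have h := inv_runP (n := 113) (k := 2) S10.check_ok law_ok inv_r10_1
  rw [S10.run_ok2] at h
  exact h

theorem inv_r10_3 : PInv (poissonLaw ds) g l4 117 S10.rc3 := by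
  have h := inv_runP (n := 115) (k := 2) S10.check_ok law_ok inv_r10_2
  rw [S10.run_ok3] at h
  exact h

theorem inv_r10_4 : PInv (poissonLaw ds) g l4 119 S10.rc4 := by
  have h := inv_runP (n := 117) (k := 2) S10.check_ok law_ok inv_r10_3
  rw [S10.run_ok4] at h
  exact h

theorem inv_r10_5 : PInv (poissonLaw ds) g l4 121 S10.rc5 := by
  have h := inv_runP (n := 119) (k := 2) S10.check_ok law_ok inv_r10_4
  rw [S10.run_ok5] at h
  exact h

theorem inv_r10_6 : PInv (poissonLaw ds) g l4 123 S10.rc6 := by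
  have h := inv_runP (n := 121) (k := 2) S10.check_ok law_ok inv_r10_5
  rw [S10.run_ok6] at h
  exact h

theorem inv_r10_7 : PInv (poissonLaw ds) g l4 125 S10.rc7 := by
  have h := inv_runP (n := 123) (k := 2) S10.check_ok law_ok inv_r10_6
  rw [S10.run_ok7] at h
  exact h

theorem inv_r10_8 : PInv (poissonLaw ds) g l4 127 S10.rc8 := by
  have h := inv_runP (n := 125) (k := 2) S10.check_ok law_ok inv_r10_7
  rw [S10.run_ok8] at h
  exact h

theorem inv_r10_9 : PInv (poissonLaw ds) g l4 129 S10.rc9 := by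
  have h := inv_runP (n := 127) (k := 2) S10.check_ok law_ok inv_r10_8
  rw [S10.run_ok9] at h
  exact h

theorem inv_r10_10 : PInv (poissonLaw ds) g l4 131 S10.rc10 := by
  have h := inv_runP (n := 129) (k := 2) S10.check_ok law_ok inv_r10_9
  rw [S10.run_ok10] at h
  exact h

theorem inv_r10_11 : PInv (poissonLaw ds) g l4 133 S10.rc11 := by
  have h := inv_runP (n := 131) (k := 2) S10.check_ok law_ok inv_r10_10
  rw [S10.run_ok11] at h
  exact h

theorem inv_r10_12 : PInv (poissonLaw ds) g l4 135 S10.rc12 := by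
  have h := inv_runP (n := 133) (k := 2) S10.check_ok law_ok inv_r10_11
  rw [S10.run_ok12] at h
  exact h

theorem inv_r10_13 : PInv (poissonLaw ds) g l4 137 S10.rc13 := by
  have h := inv_runP (n := 135) (k := 2) S10.check_ok law_ok inv_r10_12
  rw [S10.run_ok13] at h
  exact h

theorem inv_r10_14 : PInv (poissonLaw ds) g l4 139 S10.rc14 := by
  have h := inv_runP (n := 137) (k := 2) S10.check_ok law_ok inv_r10_13
  rw [S10.run_ok14] at h
  exact h

theorem inv_r10_15 : PInv (poissonLaw ds) g l4 141 S10.rc15 := by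
  have h := inv_runP (n := 139) (k := 2) S10.check_ok law_ok inv_r10_14
  rw [S10.run_ok15] at h
  exact h

theorem inv_r10_16 : PInv (poissonLaw ds) g l4 143 S10.rc16 := by
  have h := inv_runP (n := 141) (k := 2) S10.check_ok law_ok inv_r10_15
  rw [S10.run_ok16] at h
  exact h

theorem inv_r10_17 : PInv (poissonLaw ds) g l4 145 S10.rc17 := by
  have h := inv_runP (n := 143) (k := 2) S10.check_ok law_ok inv_r10_16
  rw [S10.run_ok17] at h
  exact h

theorem inv_r10_18 : PInv (poissonLaw ds) g l4 147 S10.rc18 := by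
  have h := inv_runP (n := 145) (k := 2) S10.check_ok law_ok inv_r10_17
  rw [S10.run_ok18] at h
  exact h

theorem inv_r10_19 : PInv (poissonLaw ds) g l4 149 S10.rc19 := by
  have h := inv_runP (n := 147) (k := 2) S10.check_ok law_ok inv_r10_18
  rw [S10.run_ok19] at h
  exact h

theorem inv_r10_20 : PInv (poissonLaw ds) g l4 151 S10.rc20 := by
  have h := inv_runP (n := 149) (k := 2) S10.check_ok law_ok inv_r10_19
  rw [S10.run_ok20] at h
  exact h

theorem inv_r10_21 : PInv (poissonLaw ds) g l4 153 S10.rc21 := by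
  have h := inv_runP (n := 151) (k := 2) S10.check_ok law_ok inv_r10_20
  rw [S10.run_ok21] at h
  exact h

theorem inv_r10_22 : PInv (poissonLaw ds) g l4 155 S10.rc22 := by
  have h := inv_runP (n := 153) (k := 2) S10.check_ok law_ok inv_r10_21
  rw [S10.run_ok22] at h
  exact h

theorem inv_s11 : PInv (poissonLaw ds) g l4 155 S11.cp0 := by
  have h : S11.cp0 = S10.rc22 := by
    decide +kernel
  rw [h]
  exact inv_r10_22

theorem inv_r11_0 : PInv (poissonLaw ds) g l4 157 S11.rc0 := by
  have h := inv_runP (n := 155) (k := 2) S11.check_ok law_ok inv_s11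
  rw [S11.run_ok0] at h
  exact h

theorem inv_r11_1 : PInv (poissonLaw ds) g l4 159 S11.rc1 := by
  have h := inv_runP (n := 157) (k := 2) S11.check_ok law_ok inv_r11_0
  rw [S11.run_ok1] at h
  exact h

theorem inv_r11_2 : PInv (poissonLaw ds) g l4 161 S11.rc2 := by
  have h := inv_runP (n := 159) (k := 2) S11.check_ok law_ok inv_r11_1
  rw [S11.run_ok2] at h
  exact h

theorem inv_r11_3 : PInv (poissonLaw ds) g l4 163 S11.rc3 := by
  have h := inv_runP (n := 161) (k := 2) S11.check_ok law_ok inv_r11_2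
  rw [S11.run_ok3] at h
  exact h

theorem inv_r11_4 : PInv (poissonLaw ds) g l4 165 S11.rc4 := by
  have h := inv_runP (n := 163) (k := 2) S11.check_ok law_ok inv_r11_3
  rw [S11.run_ok4] at h
  exact h

theorem inv_r11_5 : PInv (poissonLaw ds) g l4 167 S11.rc5 := by
  have h := inv_runP (n := 165) (k := 2) S11.check_ok law_ok inv_r11_4
  rw [S11.run_ok5] at h
  exact h

theorem inv_r11_6 : PInv (poissonLaw ds) g l4 169 S11.rc6 := by
  have h := inv_runP (n := 167) (k := 2) S11.check_ok law_ok inv_r11_5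
  rw [S11.run_ok6] at h
  exact h

theorem inv_r11_7 : PInv (poissonLaw ds) g l4 171 S11.rc7 := by
  have h := inv_runP (n := 169) (k := 2) S11.check_ok law_ok inv_r11_6
  rw [S11.run_ok7] at h
  exact h

theorem inv_r11_8 : PInv (poissonLaw ds) g l4 173 S11.rc8 := by
  have h := inv_runP (n := 171) (k := 2) S11.check_ok law_ok inv_r11_7
  rw [S11.run_ok8] at h
  exact h

theorem inv_r11_9 : PInv (poissonLaw ds) g l4 175 S11.rc9 := by
  have h := inv_runP (n := 173) (k := 2) S11.check_ok law_ok inv_r11_8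
  rw [S11.run_ok9] at h
  exact h

theorem inv_r11_10 : PInv (poissonLaw ds) g l4 177 S11.rc10 := by
  have h := inv_runP (n := 175) (k := 2) S11.check_ok law_ok inv_r11_9
  rw [S11.run_ok10] at h
  exact h

theorem inv_r11_11 : PInv (poissonLaw ds) g l4 179 S11.rc11 := by
  have h := inv_runP (n := 177) (k := 2) S11.check_ok law_ok inv_r11_10
  rw [S11.run_ok11] at h
  exact h

theorem inv_r11_12 : PInv (poissonLaw ds) g l4 181 S11.rc12 := by
  have h := inv_runP (n := 179) (k := 2) S11.check_ok law_ok inv_r11_11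
  rw [S11.run_ok12] at h
  exact h

theorem inv_r11_13 : PInv (poissonLaw ds) g l4 183 S11.rc13 := by
  have h := inv_runP (n := 181) (k := 2) S11.check_ok law_ok inv_r11_12
  rw [S11.run_ok13] at h
  exact h

theorem inv_r11_14 : PInv (poissonLaw ds) g l4 185 S11.rc14 := by
  have h := inv_runP (n := 183) (k := 2) S11.check_ok law_ok inv_r11_13
  rw [S11.run_ok14] at h
  exact h

theorem inv_r11_15 : PInv (poissonLaw ds) g l4 187 S11.rc15 := by
  have h := inv_runP (n := 185) (k := 2) S11.check_ok law_ok inv_r11_14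
  rw [S11.run_ok15] at h
  exact h

theorem inv_r11_16 : PInv (poissonLaw ds) g l4 189 S11.rc16 := by
  have h := inv_runP (n := 187) (k := 2) S11.check_ok law_ok inv_r11_15
  rw [S11.run_ok16] at h
  exact h

theorem inv_r11_17 : PInv (poissonLaw ds) g l4 191 S11.rc17 := by
  have h := inv_runP (n := 189) (k := 2) S11.check_ok law_ok inv_r11_16
  rw [S11.run_ok17] at h
  exact h

theorem inv_r11_18 : PInv (poissonLaw ds) g l4 193 S11.rc18 := by
  have h := inv_runP (n := 191) (k := 2) S11.check_ok law_ok inv_r11_17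
  rw [S11.run_ok18] at h
  exact h

theorem inv_r11_19 : PInv (poissonLaw ds) g l4 195 S11.rc19 := by
  have h := inv_runP (n := 193) (k := 2) S11.check_ok law_ok inv_r11_18
  rw [S11.run_ok19] at h
  exact h

theorem inv_r11_20 : PInv (poissonLaw ds) g l4 197 S11.rc20 := by
  have h := inv_runP (n := 195) (k := 2) S11.check_ok law_ok inv_r11_19
  rw [S11.run_ok20] at h
  exact h

theorem inv_r11_21 : PInv (poissonLaw ds) g l4 199 S11.rc21 := by
  have h := inv_runP (n := 197) (k := 2) S11.check_ok law_ok inv_r11_20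
  rw [S11.run_ok21] at h
  exact h

theorem inv_r11_22 : PInv (poissonLaw ds) g l4 201 S11.rc22 := by
  have h := inv_runP (n := 199) (k := 2) S11.check_ok law_ok inv_r11_21
  rw [S11.run_ok22] at h
  exact h

theorem inv_r11_23 : PInv (poissonLaw ds) g l4 203 S11.rc23 := by
  have h := inv_runP (n := 201) (k := 2) S11.check_ok law_ok inv_r11_22
  rw [S11.run_ok23] at h
  exact h

theorem inv_r11_24 : PInv (poissonLaw ds) g l4 205 S11.rc24 := by
  have h := inv_runP (n := 203) (k := 2) S11.check_ok law_ok inv_r11_23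
  rw [S11.run_ok24] at h
  exact h

theorem inv_r11_25 : PInv (poissonLaw ds) g l4 207 S11.rc25 := by
  have h := inv_runP (n := 205) (k := 2) S11.check_ok law_ok inv_r11_24
  rw [S11.run_ok25] at h
  exact h

theorem inv_r11_26 : PInv (poissonLaw ds) g l4 209 S11.rc26 := by
  have h := inv_runP (n := 207) (k := 2) S11.check_ok law_ok inv_r11_25
  rw [S11.run_ok26] at h
  exact h

theorem inv_r11_27 : PInv (poissonLaw ds) g l4 211 S11.rc27 := by
  have h := inv_runP (n := 209) (k := 2) S11.check_ok law_ok inv_r11_26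
  rw [S11.run_ok27] at h
  exact h

theorem inv_s12 : PInv (poissonLaw ds) g l4 211 S12.cp0 := by
  have h : S12.cp0 = S11.rc27 := by
    decide +kernel
  rw [h]
  exact inv_r11_27

theorem inv_r12_0 : PInv (poissonLaw ds) g l4 213 S12.rc0 := by
  have h := inv_runP (n := 211) (k := 2) S12.check_ok law_ok inv_s12
  rw [S12.run_ok0] at h
  exact h

theorem inv_r12_1 : PInv (poissonLaw ds) g l4 215 S12.rc1 := by
  have h := inv_runP (n := 213) (k := 2) S12.check_ok law_ok inv_r12_0
  rw [S12.run_ok1] at h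
  exact h

theorem inv_r12_2 : PInv (poissonLaw ds) g l4 217 S12.rc2 := by
  have h := inv_runP (n := 215) (k := 2) S12.check_ok law_ok inv_r12_1
  rw [S12.run_ok2] at h
  exact h

theorem inv_r12_3 : PInv (poissonLaw ds) g l4 219 S12.rc3 := by
  have h := inv_runP (n := 217) (k := 2) S12.check_ok law_ok inv_r12_2
  rw [S12.run_ok3] at h
  exact h

theorem inv_r12_4 : PInv (poissonLaw ds) g l4 221 S12.rc4 := by
  have h := inv_runP (n := 219) (k := 2) S12.check_ok law_ok inv_r12_3
  rw [S12.run_ok4] at h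
  exact h

theorem inv_r12_5 : PInv (poissonLaw ds) g l4 223 S12.rc5 := by
  have h := inv_runP (n := 221) (k := 2) S12.check_ok law_ok inv_r12_4
  rw [S12.run_ok5] at h
  exact h

theorem inv_e : PInv (poissonLaw ds) g l4 223 S12.cp1 := by
  have h : S12.cp1 = S12.rc5 := by
    decide +kernel
  rw [h]
  exact inv_r12_5

theorem hand : ∃ A : FF, A.Good ∧ (∀ G, Sublin G → Symm G → PhiE (gwEx (poissonLaw ds) (lamOf g) (223 + 1)) G ≤ val A.F G)
      ∧ InClass ((hp.kapN : ℝ) / hp.kapD) ((hp.bpN : ℝ) / hp.bpD) ((hp.bmN : ℝ) / hp.bmD) (famEx A.F)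
          ((hp.Mn : ℝ) / hp.Md) ∧ famEx A.F I2cb ≤ ((1 : ℕ) : ℝ) / ((100 : ℕ) : ℝ) :=
  handoffP S12.check_ok law_ok inv_e (by decide +kernel) (by decide +kernel) (by decide +kernel)
    (by decide +kernel) (by decide +kernel) S12.hand_ok

/-- what the chain gives -/
theorem box : BoxOK (40121 / 10000) (1 / 2) (39 / 2500) (21 / 2) (78 / 25) (237 / 100) (1 / 100) := by
  obtain ⟨A, h1, h2, h3, h4⟩ := hand
  have el : lamOf g = -((1 : ℝ) / 2) := by
    have e : lamOf g = -((g.ln : ℝ) / g.ld) := rfl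
    rw [e]
    norm_num [g]
  have e1 : ((hp.kapN : ℝ) / hp.kapD) = 21 / 2 := by norm_num [hp]
  have e2 : ((hp.bpN : ℝ) / hp.bpD) = 78 / 25 := by norm_num [hp]
  have e3 : ((hp.bmN : ℝ) / hp.bmD) = 237 / 100 := by norm_num [hp]
  have e4 : ((hp.Mn : ℝ) / hp.Md) = 39 / 2500 := by norm_num [hp]
  have e5 : (((1 : ℕ) : ℝ) / ((100 : ℕ) : ℝ)) = 1 / 100 := by norm_num
  rw [el] at h2
  rw [e1, e2, e3, e4] at h3
  rw [e5] at h4
  exact ⟨223 + 1, A, h1, h2, h3, h4⟩

end Vale.Agent.Lib.P154.PChain.BA
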