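import Vale.Agent.Lib.P154.PChain.BA.R11_2

set_option linter.all false

namespace Vale.Agent.Lib.P154.PChain.BA.S11

open Vale.Agent.Lib.P154.Chain

set_option maxRecDepth 10000000 in
def run_ok24 : runP g l4 (vPacked vl) wp Tp Tx Te Tz 2 rc23 = rc24 := by
  decide +kernel

set_option maxRecDepth 10000000 in
def run_ok25 : runP g l4 (vPacked vl) wp Tp Tx Te Tz 2 rc24 = rc25 := by
  decide +kernel

set_option maxRecDepth 10000000 in
def run_ok26 : runP g l4 (vPacked vl) wp Tp Tx Te Tz 2 rc25 = rc26 := by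
  decide +kernel

set_option maxRecDepth 10000000 in
def run_ok27 : runP g l4 (vPacked vl) wp Tp Tx Te Tz 2 rc26 = rc27 := by
  decide +kernel

end Vale.Agent.Lib.P154.PChain.BA.S11
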